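import Vale.Agent.P143.Final

/-!
# P143 : the free uniform spanning forest is a factor of IID
-/

namespace Vale.Agent.Results.P143.FusfFactor

open MeasureTheory _root_.P143

universe u

/-- The free uniform spanning forest (FUSF) is a factor of IID.

(A) For every infinite group `Γ` with a finite generating set `S`, the FUSF of the Cayley graph is a
`Γ`-factor of IID uniform labels: there is a measurable, everywhere `Γ`-equivariant map `Φ` such that
the law of `Φ(U)`, `U` IID uniform on `[0,1]`, is the FUSF.

(B) There is a single measurable map `Φ` of (graph on `ℕ`, labels on `ℕ`) whose value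
`{e : Φ(G,U,e) = 1}` commutes with every relabelling of the vertices (so that `Φ(G,U,e)` is a function
of the isomorphism class of the labelled graph with a distinguished edge), and such that for EVERY
connected locally finite graph `G` on `ℕ` the law of `Φ(G,U)` is the FUSF of `G`.

(C) For every countable, connected, locally finite graph the FUSF is an `Aut(G)`-equivariant factor
of IID. -/
theorem result :
    (∀ (Γ : Type u) [Group Γ] [Infinite Γ] (S : Finset Γ),
      Subgroup.closure (S : Set Γ) = ⊤ →
      (cayleyGraph (S : Set Γ)).Connected ∧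
      ∃ Φ : (Γ → unitInterval) → Set (Sym2 Γ), Measurable Φ ∧
        (∀ (γ : Γ) (U : Γ → unitInterval),
          Φ (permLabels (Equiv.mulLeft γ) U) = permEdges (Equiv.mulLeft γ) (Φ U)) ∧
        IsFUSF (cayleyGraph (S : Set Γ)) ((iidLabels Γ).map Φ)) ∧
    (∃ Φ : SimpleGraph ℕ → (ℕ → unitInterval) → Set (Sym2 ℕ),
      Measurable (fun p : SimpleGraph ℕ × (ℕ → unitInterval) => Φ p.1 p.2) ∧
      (∀ (σ : Equiv.Perm ℕ) (G : SimpleGraph ℕ) (U : ℕ → unitInterval),
        Φ (permGraph σ G) (permLabels σ U) = permEdges σ (Φ G U)) ∧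
      ∀ G : SimpleGraph ℕ, G.Connected → (∀ v, (G.neighborSet v).Finite) →
        IsFUSF G ((iidLabels ℕ).map (Φ G))) ∧
    (∀ (V : Type u) [Countable V] (G : SimpleGraph V), G.Connected →
      (∀ v, (G.neighborSet v).Finite) →
      ∃ Φ : (V → unitInterval) → Set (Sym2 V), Measurable Φ ∧
        (∀ σ : Equiv.Perm V, permGraph σ G = G → ∀ U : V → unitInterval,
          Φ (permLabels σ U) = permEdges σ (Φ U)) ∧
        IsFUSF G ((iidLabels V).map Φ)) := by
  have hmain : ∀ (V : Type u) [Countable V] (G : SimpleGraph V), G.Connected →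
      (∀ v, (G.neighborSet v).Finite) →
      ∃ Φ : (V → unitInterval) → Set (Sym2 V), Measurable Φ ∧
        (∀ σ : Equiv.Perm V, permGraph σ G = G → ∀ U : V → unitInterval,
          Φ (permLabels σ U) = permEdges σ (Φ U)) ∧
        IsFUSF G ((iidLabels V).map Φ) := by
    intro V _ G hG hlf
    refine ⟨Phi G, ?_, ?_, isFUSF_Phi G hG hlf⟩
    · exact measurable_Phi.comp (measurable_const.prodMk measurable_id)
    · intro σ hσ U
      have h := Phi_perm σ G U
      rwa [hσ] at h
  refine ⟨?_, ?_, hmain⟩
  · intro Γ _ _ S hS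
    have : Countable Γ := countable_of_closure hS
    refine ⟨cayleyGraph_connected hS, ?_⟩
    obtain ⟨Φ, hΦ, heq, hlaw⟩ := hmain Γ (cayleyGraph (S : Set Γ)) (cayleyGraph_connected hS)
      (cayleyGraph_finite S)
    exact ⟨Φ, hΦ, fun γ U => heq _ (permGraph_cayley _ γ) U, hlaw⟩
  · exact ⟨Phi, measurable_Phi, Phi_perm, fun G hG hlf => isFUSF_Phi G hG hlf⟩

end Vale.Agent.Results.P143.FusfFactor
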